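import Vale.Agent.P267.H221.Out

/-!
# P267, package XM-H1, part 1 (helper824): from Riemann-Roch to exact combinations

On a closed surface with finite-dimensional Dolbeault cohomology: if `h⁰(L) = 0`,
`h⁰(K ⊗ L^*) = 0` and `χ(L) = -r`, then among any `r + 1` closed `(0,1)`-forms with values in `L`
some nontrivial linear combination is exact.
-/

set_option linter.unusedSectionVars false

open scoped Manifold ContDiff
open Set

noncomputable section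

namespace Vale.Agent.P267.H824

open FL RR

/-- `r + 1` elements of a submodule `Z` are dependent modulo `B` if `dim Z / B = r` -/
theorem exists_comb {E : Type*} [AddCommGroup E] [Module ℂ E] (Z B : Submodule ℂ E) (r : ℕ)
    (hfd : FiniteDimensional ℂ (Z ⧸ B.comap Z.subtype))
    (hr : Module.finrank ℂ (Z ⧸ B.comap Z.subtype) = r) (w : Fin (r + 1) → E)
    (hw : ∀ j, w j ∈ Z) : ∃ c : Fin (r + 1) → ℂ, c ≠ 0 ∧ ∑ j, c j • w j ∈ B := by
  classical
  let v : Fin (r + 1) → Z ⧸ B.comap Z.subtype := fun j => Submodule.Quotient.mk ⟨w j, hw j⟩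
  have hdep : ¬ LinearIndependent ℂ v := by
    intro h
    have := h.fintype_card_le_finrank
    rw [Fintype.card_fin, hr] at this
    omega
  rw [Fintype.not_linearIndependent_iff] at hdep
  obtain ⟨c, hc, j, hj⟩ := hdep
  refine ⟨c, fun h => hj (by rw [h]; rfl), ?_⟩
  have h1 : (Submodule.Quotient.mk (∑ j, c j • (⟨w j, hw j⟩ : Z)) : Z ⧸ B.comap Z.subtype) = 0 := by
    rw [← hc]
    simp only [v]
    rw [← Submodule.mkQ_apply, map_sum]
    refine Finset.sum_congr rfl fun i _ => ?_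
    rw [map_smul, Submodule.mkQ_apply]
  rw [Submodule.Quotient.mk_eq_zero, Submodule.mem_comap] at h1
  have h2 : (Z.subtype (∑ j, c j • (⟨w j, hw j⟩ : Z))) = ∑ j, c j • w j := by
    rw [map_sum]
    refine Finset.sum_congr rfl fun i _ => ?_
    rw [map_smul]
    rfl
  rw [← h2]
  exact h1

section

variable {Y : Type} [TopologicalSpace Y] [ChartedSpace C2 Y]
variable {ι : Type} [Fintype ι] [DecidableEq ι] {ι' : Type} [Fintype ι'] [DecidableEq ι']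

theorem h0_eq_zero (L : LB Y ι) (a : Y → Fin 2 → ℂ) (κ : ℤ)
    (h : ∀ s, Reg0 ∞ κ s → L.Sec s → L.db0 a κ s = 0 → s = 0) : h0 L a κ = 0 := by
  have : H0 L a κ = ⊥ := by
    rw [eq_bot_iff]
    intro s hs
    rw [mem_H0] at hs
    rw [Submodule.mem_bot]
    exact h s hs.1.1 hs.1.2 hs.2
  rw [h0, this]
  exact finrank_bot ℂ _

/-- Riemann-Roch gives `h¹ = r` -/
theorem h1_eq (hS : SerreStmt Y) (hRR : RRStmt Y) (hO : chi (OX Y) 0 0 = 0)
    (LK : LB Y ι') (hK : IsCanon LK) (L : LB Y ι) (a : Y → Fin 2 → ℂ) (hL : L.IsHol a) (r : ℕ)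
    (V0 : ∀ s, Reg0 ∞ 0 s → L.Sec s → L.db0 a 0 s = 0 → s = 0)
    (V2 : ∀ s, Reg0 ∞ 1 s → L.dual.Sec s → L.dual.db0 (-a) 1 s = 0 → s = 0)
    (num : isec L L - isec L LK = -(2 * (r : ℂ))) : h1 L a 0 = r := by
  have e0 : h0 L a 0 = 0 := h0_eq_zero L a 0 V0
  have e2 : h2 L a 0 = 0 := by
    rw [(hS ι L a hL 0).2.2]
    exact h0_eq_zero L.dual (-a) (1 - 0) (by simpa using V2)
  have e := hRR ι ι' L a LK hL hK
  rw [hO, num, chi, e0, e2] at e
  have e' : -(h1 L a 0 : ℂ) = -(r : ℂ) := by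
    push_cast at e
    rw [← sub_eq_zero] at e ⊢
    rw [← e]
    ring
  have := neg_injective e'
  exact_mod_cast this

/-- among `r + 1` closed forms, a nontrivial combination is exact -/
theorem exists_exact (hF : FiniteStmt Y) (hS : SerreStmt Y) (hRR : RRStmt Y)
    (hO : chi (OX Y) 0 0 = 0)
    (LK : LB Y ι') (hK : IsCanon LK) (L : LB Y ι) (a : Y → Fin 2 → ℂ) (hL : L.IsHol a) (r : ℕ)
    (V0 : ∀ s, Reg0 ∞ 0 s → L.Sec s → L.db0 a 0 s = 0 → s = 0)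
    (V2 : ∀ s, Reg0 ∞ 1 s → L.dual.Sec s → L.dual.db0 (-a) 1 s = 0 → s = 0)
    (num : isec L L - isec L LK = -(2 * (r : ℂ)))
    (w : Fin (r + 1) → Y → Fin 2 → EuclideanSpace ℂ ι)
    (hw : ∀ j, Reg1 ∞ 0 (w j) ∧ L.Sec1 (w j) ∧ ∀ x, L.db1 a 0 (w j) x = 0) :
    ∃ c : Fin (r + 1) → ℂ, c ≠ 0 ∧ ∃ s, Reg0 ∞ 0 s ∧ L.Sec s ∧ L.db0 a 0 s = ∑ j, c j • w j := by
  have h1r := h1_eq hS hRR hO LK hK L a hL r V0 V2 num
  obtain ⟨c, hc, hB⟩ := exists_comb (Z1 L a 0) (B1 L a 0) r (hF ι L a hL 0).2.1 h1r w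
    (fun j => mem_Z1 L a 0 |>.2 ⟨⟨(hw j).1, (hw j).2.1⟩, funext (hw j).2.2⟩)
  obtain ⟨s, hs, hsw⟩ := (mem_B1 L a 0).1 hB
  exact ⟨c, hc, s, hs.1, hs.2, hsw⟩

end

end Vale.Agent.P267.H824
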