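import Vale.Agent.P267.H877.Trans
import Vale.Agent.P267.H824.Lin

/-!
# P267, package XM-H1, part 2 (helper824): descent to `X_m` and the twist by `exp (lam f)`

* Leibniz rules, `∂̄ ∂̄ = 0`;
* `IsQuot D m q`: `q : M → Y` presents `Y` as the quotient of `M` by `γ^m`;
* descent of functions, forms, line bundles;
* `EqEx D L a m μ r`: among `r + 1` equivariant closed `(0,1)`-forms on `X_m` some nontrivial
  combination is `∂̄` of an equivariant section; `eqEx`: it follows from Riemann-Roch on `Y`.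
-/

set_option linter.unusedSectionVars false
set_option linter.unusedVariables false

open scoped Manifold ContDiff Topology
open Set Filter

noncomputable section

namespace Vale.Agent.P267.H824

open FL XT RR

section leibniz

variable {X : Type*} [TopologicalSpace X] [ChartedSpace C2 X]
variable {V : Type*} [NormedAddCommGroup V] [NormedSpace ℂ V]

theorem loc0_smulS (κ : ℤ) (e : Ch X) (g : X → ℂ) (s : X → V) (z : C2) :
    loc0 κ e (fun x => g x • s x) z = loc0 0 e g z • loc0 κ e s z := by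
  simp only [loc0, zpow_zero, one_smul]
  rw [smul_comm]

theorem loc1_smulS (κ : ℤ) (e : Ch X) (g : X → ℂ) (w : X → Fin 2 → V) (z : C2) (i : Fin 2) :
    loc1 κ e (fun x => g x • w x) z i = loc0 0 e g z • loc1 κ e w z i := by
  simp only [loc0, loc1, zpow_zero, one_smul, Pi.smul_apply, Fin.sum_univ_two]
  module

theorem reg0_smulS {n : WithTop ℕ∞} {κ : ℤ} {g : X → ℂ} {s : X → V} (hg : Reg0 n 0 g)
    (hs : Reg0 n κ s) : Reg0 n κ fun x => g x • s x := fun e he =>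
  ((hg e he).smul (hs e he)).congr fun z _ => loc0_smulS κ e g s z

theorem reg1_smulS {n : WithTop ℕ∞} {κ : ℤ} {g : X → ℂ} {w : X → Fin 2 → V} (hg : Reg0 n 0 g)
    (hw : Reg1 n κ w) : Reg1 n κ fun x => g x • w x := by
  intro e he
  rw [contDiffOn_pi]
  intro i
  exact ((hg e he).smul (contDiffOn_pi.1 (hw e he) i)).congr fun z _ => loc1_smulS κ e g w z i

variable [IsManifold 𝓘(ℂ, C2) ω X]

theorem reg0_diffAt {κ : ℤ} {s : X → V} (hs : Reg0 ∞ κ s) (x : X) :
    DifferentiableAt ℝ (loc0 κ (chartAt C2 x) s) (chartAt C2 x x) :=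
  (hs.contDiffAt (chart_mem_atlas C2 x) (mem_chart_target C2 x)).differentiableAt (by simp)

theorem reg1_diffAt {κ : ℤ} {w : X → Fin 2 → V} (hw : Reg1 ∞ κ w) (x : X) (i : Fin 2) :
    DifferentiableAt ℝ (fun z => loc1 κ (chartAt C2 x) w z i) (chartAt C2 x x) :=
  differentiableAt_pi.1
    ((hw.contDiffAt (chart_mem_atlas C2 x) (mem_chart_target C2 x)).differentiableAt (by simp)) i

theorem dbar0_smulS {κ : ℤ} {g : X → ℂ} {s : X → V} (hg : Reg0 ∞ 0 g) (hs : Reg0 ∞ κ s)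
    (x : X) (i : Fin 2) :
    dbar0 κ (fun x => g x • s x) x i = g x • dbar0 κ s x i + dbar0 0 g x i • s x := by
  have h : loc0 κ (chartAt C2 x) (fun x => g x • s x) =
      fun z => loc0 0 (chartAt C2 x) g z • loc0 κ (chartAt C2 x) s z := by
    funext z; exact loc0_smulS κ _ g s z
  simp only [dbar0]
  rw [h, FL.dzb_smul (reg0_diffAt hg x) (reg0_diffAt hs x), loc0_chartAt, loc0_chartAt]

theorem dbar1_smulS {κ : ℤ} {g : X → ℂ} {w : X → Fin 2 → V} (hg : Reg0 ∞ 0 g)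
    (hw : Reg1 ∞ κ w) (x : X) :
    dbar1 κ (fun x => g x • w x) x =
      g x • dbar1 κ w x + (dbar0 0 g x 0 • w x 1 - dbar0 0 g x 1 • w x 0) := by
  have h : ∀ i, (fun z => loc1 κ (chartAt C2 x) (fun x => g x • w x) z i) =
      fun z => loc0 0 (chartAt C2 x) g z • loc1 κ (chartAt C2 x) w z i := fun i => by
    funext z; exact loc1_smulS κ _ g w z i
  simp only [dbar1, dbar0]
  rw [h, h, FL.dzb_smul (reg0_diffAt hg x) (reg1_diffAt hw x 1),
    FL.dzb_smul (reg0_diffAt hg x) (reg1_diffAt hw x 0), loc0_chartAt, loc1_chartAt]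
  module

theorem reg1_dbar0 {κ : ℤ} {s : X → V} (hs : Reg0 ∞ κ s) : Reg1 ∞ κ (dbar0 κ s) := by
  intro e he
  rw [contDiffOn_pi]
  intro i
  have h1 : ContDiffOn ℝ ∞ (fun z => dzb i (loc0 κ e s) z) e.target :=
    contDiffOn_dzb e.open_target (hs e he) (by simp) i
  refine h1.congr fun z hz => ?_
  exact loc1_dbar0 he hz ((hs.contDiffAt he hz).differentiableAt (by simp)) i

theorem dbar1_dbar0 {κ : ℤ} {s : X → V} (hs : Reg0 ∞ κ s) (x : X) :
    dbar1 κ (dbar0 κ s) x = 0 := by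
  have he := chart_mem_atlas C2 x
  have h : ∀ i, (fun z => loc1 κ (chartAt C2 x) (dbar0 κ s) z i) =ᶠ[𝓝 (chartAt C2 x x)]
      fun z => dzb i (loc0 κ (chartAt C2 x) s) z := fun i => by
    filter_upwards [(chartAt C2 x).open_target.mem_nhds (mem_chart_target C2 x)] with z hz
    exact loc1_dbar0 he hz ((hs.contDiffAt he hz).differentiableAt (by simp)) i
  rw [dbar1, dzb_congr (h 1), dzb_congr (h 0), sub_eq_zero]
  exact dzb_dzb_comm ((hs.contDiffAt he (mem_chart_target C2 x)).of_le (by norm_cast)) 0 1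

end leibniz

section expo

variable {X : Type*} [TopologicalSpace X] [ChartedSpace C2 X]

/-- `exp (lam f)` -/
def ex (lam : ℂ) (f : X → ℝ) (x : X) : ℂ := Complex.exp (lam * f x)

theorem ex_ne_zero (lam : ℂ) (f : X → ℝ) (x : X) : ex lam f x ≠ 0 := Complex.exp_ne_zero _

theorem ex_neg_mul (lam : ℂ) (f : X → ℝ) (x : X) : ex (-lam) f x * ex lam f x = 1 := by
  rw [ex, ex, ← Complex.exp_add]; simp

theorem ex_mul_neg (lam : ℂ) (f : X → ℝ) (x : X) : ex lam f x * ex (-lam) f x = 1 := by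
  rw [mul_comm, ex_neg_mul]

theorem loc0_ex (lam : ℂ) (f : X → ℝ) (e : Ch X) (z : C2) :
    loc0 0 e (ex lam f) z = Complex.exp (lam * loc0 0 e (fun x => (f x : ℂ)) z) := by
  simp [loc0, ex]

theorem reg0_ex (lam : ℂ) {f : X → ℝ} (hf : Reg0 ∞ 0 fun x => (f x : ℂ)) :
    Reg0 ∞ 0 (ex lam f) := by
  intro e he
  have h1 : ContDiffOn ℝ ∞ (fun z => lam * loc0 0 e (fun x => (f x : ℂ)) z) e.target :=
    contDiffOn_const.mul (hf e he)
  have h2 : ContDiffOn ℝ ∞ (fun z => Complex.exp (lam * loc0 0 e (fun x => (f x : ℂ)) z))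
      e.target := h1.cexp
  exact h2.congr fun z _ => loc0_ex lam f e z

theorem dzb_exp {g : C2 → ℂ} {z : C2} (hg : DifferentiableAt ℝ g z) (i : Fin 2) :
    dzb i (fun y => Complex.exp (g y)) z = Complex.exp (g z) * dzb i g z := by
  have h : fderiv ℝ (fun y => Complex.exp (g y)) z = Complex.exp (g z) • fderiv ℝ g z :=
    hg.hasFDerivAt.cexp.fderiv
  simp only [dzb, h, smul_apply, smul_eq_mul]
  ring

variable [IsManifold 𝓘(ℂ, C2) ω X]

theorem dbar0_ex (lam : ℂ) {f : X → ℝ} (hf : Reg0 ∞ 0 fun x => (f x : ℂ)) (x : X) (i : Fin 2) :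
    dbar0 0 (ex lam f) x i = ex lam f x * (lam * dbar0 0 (fun x => (f x : ℂ)) x i) := by
  have hd := reg0_diffAt hf x
  have h : loc0 0 (chartAt C2 x) (ex lam f) =
      fun z => Complex.exp (lam * loc0 0 (chartAt C2 x) (fun x => (f x : ℂ)) z) := by
    funext z; exact loc0_ex lam f _ z
  have h2 : dzb i (fun z => lam * loc0 0 (chartAt C2 x) (fun x => (f x : ℂ)) z)
      (chartAt C2 x x) = lam * dzb i (loc0 0 (chartAt C2 x) (fun x => (f x : ℂ)))
      (chartAt C2 x x) := FL.dzb_const_smul lam hd i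
  rw [dbar0, h, dzb_exp (hd.const_mul lam) i, h2, loc0_chartAt]
  rfl

end expo

/-! ### twisted operators -/

section twist

variable {X : Type*} [TopologicalSpace X] [ChartedSpace C2 X] [IsManifold 𝓘(ℂ, C2) ω X]
variable {ι : Type} [Fintype ι] [DecidableEq ι]

/-- the structure `a + lam ∂̄f` -/
def tw (a : X → Fin 2 → ℂ) (lam : ℂ) (f : X → ℝ) (x : X) (i : Fin 2) : ℂ :=
  a x i + lam * dbar0 0 (fun x => (f x : ℂ)) x i

theorem tw_neg (a : X → Fin 2 → ℂ) (lam : ℂ) (f : X → ℝ) : -tw a lam f = tw (-a) (-lam) f := by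
  funext x i
  simp only [tw, Pi.neg_apply]
  ring

theorem isHol_tw {L : LB X ι} {a : X → Fin 2 → ℂ} (hL : L.IsHol a) (lam : ℂ) {f : X → ℝ}
    (hf : Reg0 ∞ 0 fun x => (f x : ℂ)) : L.IsHol (tw a lam f) := by
  have e : tw a lam f = a + lam • dbar0 0 (fun x => (f x : ℂ)) := by
    funext x i
    simp [tw]
  have h1 : Reg1 ∞ 0 (lam • dbar0 0 (fun x => (f x : ℂ))) := Reg1.smul lam (reg1_dbar0 hf)
  refine ⟨?_, fun x => ?_⟩
  · rw [e]; exact Reg1.add hL.smooth h1
  · rw [e, dbar1_add hL.smooth h1, dbar1_smul lam (reg1_dbar0 hf)]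
    have := hL.integrable x
    simp only [Pi.add_apply, Pi.smul_apply, dbar1_dbar0 hf x, smul_zero, add_zero]
    exact this

theorem db0_twist (L : LB X ι) (a : X → Fin 2 → ℂ) (κ : ℤ) (lam : ℂ) {f : X → ℝ}
    (hf : Reg0 ∞ 0 fun x => (f x : ℂ)) {s : X → EuclideanSpace ℂ ι} (hs : Reg0 ∞ κ s)
    (hsec : L.Sec s) (x : X) (i : Fin 2) :
    L.db0 a κ (fun y => ex lam f y • s y) x i = ex lam f x • L.db0 (tw a lam f) κ s x i := by
  simp only [LB.db0]
  rw [dbar0_smulS (reg0_ex lam hf) hs, dbar0_ex lam hf, act_add, act_smul, act_smul, hsec x]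
  simp only [tw]
  module

theorem db1_twist (L : LB X ι) (a : X → Fin 2 → ℂ) (κ : ℤ) (lam : ℂ) {f : X → ℝ}
    (hf : Reg0 ∞ 0 fun x => (f x : ℂ)) {w : X → Fin 2 → EuclideanSpace ℂ ι} (hw : Reg1 ∞ κ w)
    (hsec : L.Sec1 w) (x : X) :
    L.db1 a κ (fun y => ex lam f y • w y) x = ex lam f x • L.db1 (tw a lam f) κ w x := by
  have hsub : ∀ (M : Matrix ι ι ℂ) (v w : EuclideanSpace ℂ ι),
      LB.act M (v - w) = LB.act M v - LB.act M w := by
    intro M v w
    rw [sub_eq_add_neg, act_add, sub_eq_add_neg, ← neg_one_smul ℂ w, act_smul, neg_one_smul]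
  simp only [LB.db1]
  rw [dbar1_smulS (reg0_ex lam hf) hw, dbar0_ex lam hf, dbar0_ex lam hf, act_add, act_smul, hsub,
    act_smul, act_smul, hsec x 0, hsec x 1]
  simp only [tw, Pi.smul_apply]
  module

omit [IsManifold 𝓘(ℂ, C2) ω X] in
theorem lb_ext {L L' : LB X ι} (h : L.P = L'.P) : L = L' := by
  cases L; cases L'; simp only at h; subst h; rfl

theorem sec_smulS {L : LB X ι} {g : X → ℂ} {s : X → EuclideanSpace ℂ ι} (hs : L.Sec s) :
    L.Sec fun x => g x • s x := fun x => by rw [act_smul, hs x]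

theorem sec1_smulS {L : LB X ι} {g : X → ℂ} {w : X → Fin 2 → EuclideanSpace ℂ ι} (hw : L.Sec1 w) :
    L.Sec1 fun x => g x • w x := fun x i => by
  change LB.act (L.P x) (g x • w x i) = g x • w x i
  rw [act_smul, hw x i]

end twist

/-! ### quotients -/

section quot

variable {M : Type} [TopologicalSpace M] [ChartedSpace C2 M]
variable {Y : Type} [TopologicalSpace Y] [ChartedSpace C2 Y]

/-- `q : M → Y` presents `Y` as the quotient of `M` by `γ^m` -/
structure IsQuot (D : XTData M) (m : ℤ) (q : M → Y) : Prop where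
  cm : ChartMap q
  surj : Function.Surjective q
  sh : ∀ x, q (D.sh m x) = q x
  fib : ∀ x y, q x = q y → ∃ k : ℤ, y = D.sh (m * k) x

/-- among `r + 1` equivariant closed `(0,1)`-forms with values in `(L, a)` and multiplier `μ` some
nontrivial combination is `∂̄` of an equivariant section -/
def EqEx {ι : Type} [Fintype ι] [DecidableEq ι] (D : XTData M) (L : LB M ι) (a : M → Fin 2 → ℂ)
    (m : ℤ) (μ : ℂ) (r : ℕ) : Prop :=
  ∀ w : Fin (r + 1) → M → Fin 2 → EuclideanSpace ℂ ι,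
    (∀ j, Reg1 ∞ 0 (w j) ∧ L.Sec1 (w j) ∧ (∀ x, L.db1 a 0 (w j) x = 0) ∧ D.Equiv m μ (w j)) →
    ∃ c : Fin (r + 1) → ℂ, c ≠ 0 ∧ ∃ u : M → EuclideanSpace ℂ ι, Reg0 ∞ 0 u ∧ L.Sec u ∧
      D.Equiv m μ u ∧ ∀ x i, L.db0 a 0 u x i = ∑ j, c j • w j x i

theorem invariant_mul {D : XTData M} {m : ℤ} {V : Type*} {u : M → V}
    (hu : ∀ x, u (D.sh m x) = u x) (k : ℤ) (x : M) : u (D.sh (m * k) x) = u x := by
  revert k
  apply XTData.sh_induction
  · simp
  · intro k hk
    rw [mul_add, mul_one, add_comm, D.sh_add, hu, hk]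
  · intro k hk
    have h := hu (D.sh (m * (k - 1)) x)
    rw [← D.sh_add, show m + m * (k - 1) = m * k by ring, hk] at h
    exact h.symm

theorem sh_m_germ {D : XTData M} {m : ℤ} {q : M → Y} (hq : IsQuot D m q) (k : ℤ) (x : M) :
    q (D.sh (m * k) x) = q x := invariant_mul hq.sh k x

namespace IsQuot

variable {D : XTData M} {m : ℤ} {q : M → Y} (hq : IsQuot D m q)

include hq

/-- descent of a function -/
def desc {V : Type*} (u : M → V) (y : Y) : V := u (Function.surjInv hq.surj y)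

theorem desc_apply {V : Type*} {u : M → V} (hu : ∀ x, u (D.sh m x) = u x) (x : M) :
    hq.desc u (q x) = u x := by
  obtain ⟨k, hk⟩ := hq.fib x _ (Function.surjInv_eq hq.surj (q x)).symm
  rw [desc, hk, invariant_mul hu]

theorem desc_comp {V : Type*} {u : M → V} (hu : ∀ x, u (D.sh m x) = u x) :
    (fun x => hq.desc u (q x)) = u := funext (hq.desc_apply hu)

variable [IsManifold 𝓘(ℂ, C2) ω M] [IsManifold 𝓘(ℂ, C2) ω Y]
variable {ι : Type} [Fintype ι] [DecidableEq ι]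

/-- descent of a line bundle -/
def lbd (L : LB M ι) (hP : ∀ x, L.P (D.sh m x) = L.P x) : LB Y ι where
  P := hq.desc L.P
  smooth i j := by
    rw [← hq.cm.reg0_comp_iff hq.surj]
    have : (fun z => hq.desc L.P (q z) i j) = fun z => L.P z i j := by
      funext z; rw [hq.desc_apply hP]
    rw [this]
    exact L.smooth i j
  herm y := L.herm _
  idem y := L.idem _
  tr y := L.tr _

theorem lbd_P (L : LB M ι) (hP : ∀ x, L.P (D.sh m x) = L.P x) (x : M) :
    (hq.lbd L hP).P (q x) = L.P x := hq.desc_apply hP x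

theorem lb_lbd (L : LB M ι) (hP : ∀ x, L.P (D.sh m x) = L.P x) :
    hq.cm.lb (hq.lbd L hP) = L := by
  apply lb_ext
  funext x
  exact hq.lbd_P L hP x

theorem dual_P {L : LB M ι} (hP : ∀ x, L.P (D.sh m x) = L.P x) (x : M) :
    L.dual.P (D.sh m x) = L.dual.P x := by
  simp only [LB.dual, hP]

theorem lbd_dual (L : LB M ι) (hP : ∀ x, L.P (D.sh m x) = L.P x) :
    (hq.lbd L hP).dual = hq.lbd L.dual (dual_P hq hP) := by
  apply lb_ext
  rfl

theorem isHol_desc {L : LB M ι} {a : M → Fin 2 → ℂ} (hP : ∀ x, L.P (D.sh m x) = L.P x)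
    (ha : ∀ x, a (D.sh m x) = a x) (hL : L.IsHol a) : (hq.lbd L hP).IsHol (hq.desc a) := by
  refine ⟨?_, fun y => ?_⟩
  · rw [← hq.cm.reg1_comp_iff hq.surj, hq.desc_comp ha]
    exact hL.smooth
  · obtain ⟨x, rfl⟩ := hq.surj y
    rw [← hq.cm.dbar1_comp, hq.desc_comp ha, ← hq.cm.lb_F02, hq.lb_lbd]
    exact hL.integrable x

theorem db0_desc {L : LB M ι} {a : M → Fin 2 → ℂ} (hP : ∀ x, L.P (D.sh m x) = L.P x)
    (ha : ∀ x, a (D.sh m x) = a x) (κ : ℤ) (s : Y → EuclideanSpace ℂ ι) (x : M) :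
    (hq.lbd L hP).db0 (hq.desc a) κ s (q x) = L.db0 a κ (fun z => s (q z)) x := by
  rw [← hq.cm.lb_db0, hq.lb_lbd, hq.desc_comp ha]

theorem db1_desc {L : LB M ι} {a : M → Fin 2 → ℂ} (hP : ∀ x, L.P (D.sh m x) = L.P x)
    (ha : ∀ x, a (D.sh m x) = a x) (κ : ℤ) (w : Y → Fin 2 → EuclideanSpace ℂ ι) (x : M) :
    (hq.lbd L hP).db1 (hq.desc a) κ w (q x) = L.db1 a κ (fun z => w (q z)) x := by
  rw [← hq.cm.lb_db1, hq.lb_lbd, hq.desc_comp ha]

theorem sec_comp {L : LB M ι} (hP : ∀ x, L.P (D.sh m x) = L.P x) {s : Y → EuclideanSpace ℂ ι}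
    (hs : (hq.lbd L hP).Sec s) : L.Sec fun z => s (q z) := fun x => by
  have := hs (q x)
  rwa [hq.lbd_P] at this

theorem sec_desc {L : LB M ι} (hP : ∀ x, L.P (D.sh m x) = L.P x) {s : Y → EuclideanSpace ℂ ι}
    (hs : L.Sec fun z => s (q z)) : (hq.lbd L hP).Sec s := fun y => by
  obtain ⟨x, rfl⟩ := hq.surj y
  rw [hq.lbd_P]
  exact hs x

theorem sec1_desc {L : LB M ι} (hP : ∀ x, L.P (D.sh m x) = L.P x)
    {w : Y → Fin 2 → EuclideanSpace ℂ ι}
    (hw : L.Sec1 fun z => w (q z)) : (hq.lbd L hP).Sec1 w := fun y i => by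
  obtain ⟨x, rfl⟩ := hq.surj y
  rw [hq.lbd_P]
  exact hw x i

omit [IsManifold 𝓘(ℂ, C2) ω Y] hq in
theorem tw_inv {a : M → Fin 2 → ℂ} (ha : ∀ x, a (D.sh m x) = a x) (lam : ℂ) (x : M) :
    tw a lam D.f (D.sh m x) = tw a lam D.f x := by
  funext i
  have h1 := (D.chartMap_sh m).dbar0_comp 0 (fun x => (D.f x : ℂ)) x
  have h2 : (fun z => ((D.f (D.sh m z) : ℝ) : ℂ)) = (fun x => (D.f x : ℂ)) + fun _ => (m : ℂ) := by
    funext z
    rw [D.f_sh]
    simp
  have hc : Reg0 ∞ 0 (fun _ : M => (m : ℂ)) := by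
    intro e he
    have : loc0 0 e (fun _ : M => (m : ℂ)) = fun _ => (m : ℂ) := by funext z; simp [loc0]
    rw [this]
    exact contDiffOn_const
  have h3 : dbar0 0 (fun _ : M => (m : ℂ)) x = 0 := by
    funext i
    have : loc0 0 (chartAt C2 x) (fun _ : M => (m : ℂ)) = fun _ => (m : ℂ) := by
      funext z; simp [loc0]
    rw [dbar0, this, dzb_const]
    rfl
  rw [h2, dbar0_add D.f_smooth hc, Pi.add_apply, h3, add_zero] at h1
  simp only [tw, ha, ← h1]

omit [IsManifold 𝓘(ℂ, C2) ω M] [IsManifold 𝓘(ℂ, C2) ω Y] hq in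
theorem ex_sh (lam : ℂ) (x : M) :
    ex lam D.f (D.sh m x) = Complex.exp (lam * m) * ex lam D.f x := by
  rw [ex, ex, D.f_sh, ← Complex.exp_add]
  congr 1
  push_cast
  ring

omit [IsManifold 𝓘(ℂ, C2) ω M] [IsManifold 𝓘(ℂ, C2) ω Y] hq in
/-- equivariant objects become invariant after multiplication with `exp (-lam f)` -/
theorem inv_of_equiv {V : Type*} [AddCommGroup V] [Module ℂ V] {μ lam : ℂ}
    (hlam : Complex.exp (lam * m) = μ) {u : M → V} (hu : D.Equiv m μ u) (x : M) :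
    ex (-lam) D.f (D.sh m x) • u (D.sh m x) = ex (-lam) D.f x • u x := by
  rw [ex_sh, hu x, ← hlam, smul_smul]
  congr 1
  rw [mul_right_comm, ← Complex.exp_add]
  simp

omit [IsManifold 𝓘(ℂ, C2) ω M] [IsManifold 𝓘(ℂ, C2) ω Y] in
theorem equiv_of_comp {V : Type*} [AddCommGroup V] [Module ℂ V] {μ lam : ℂ}
    (hlam : Complex.exp (lam * m) = μ) (s : Y → V) :
    D.Equiv m μ fun x => ex lam D.f x • s (q x) := by
  intro x
  simp only
  rw [hq.sh, ex_sh, ← hlam, mul_smul]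

/-- vanishing of equivariant holomorphic sections on `M` gives vanishing on `Y` -/
theorem van {L : LB M ι} {a : M → Fin 2 → ℂ} (hP : ∀ x, L.P (D.sh m x) = L.P x)
    (ha : ∀ x, a (D.sh m x) = a x) (κ : ℤ) {μ lam : ℂ} (hlam : Complex.exp (lam * m) = μ)
    (V0 : ∀ u : M → EuclideanSpace ℂ ι, Reg0 ∞ κ u → L.Sec u → (∀ x i, L.db0 a κ u x i = 0) →
      D.Equiv m μ u → u = 0)
    (s : Y → EuclideanSpace ℂ ι) (hs : Reg0 ∞ κ s) (hsec : (hq.lbd L hP).Sec s)
    (h0 : (hq.lbd L hP).db0 (hq.desc (tw a lam D.f)) κ s = 0) : s = 0 := by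
  have hs' : Reg0 ∞ κ fun x => s (q x) := hq.cm.reg0_comp hs
  have hsec' := hq.sec_comp hP hsec
  have h1 : ∀ x i, L.db0 a κ (fun x => ex lam D.f x • s (q x)) x i = 0 := by
    intro x i
    rw [db0_twist L a κ lam D.f_smooth hs' hsec', ← hq.db0_desc hP (tw_inv ha lam), h0]
    simp
  have h2 := V0 _ (reg0_smulS (reg0_ex lam D.f_smooth) hs') (sec_smulS hsec') h1
    (hq.equiv_of_comp hlam s)
  funext y
  obtain ⟨x, rfl⟩ := hq.surj y
  have h3 := congrFun h2 x
  simp only [Pi.zero_apply, smul_eq_zero, ex_ne_zero, false_or] at h3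
  exact h3

end IsQuot

/-- **XM-H1.** Riemann-Roch on the closed surface `Y = X_m` gives exactness of equivariant closed
`(0,1)`-forms on the infinite cyclic covering. -/
theorem eqEx [IsManifold 𝓘(ℂ, C2) ω M] [IsManifold 𝓘(ℂ, C2) ω Y]
    {ι : Type} [Fintype ι] [DecidableEq ι] {ι' : Type} [Fintype ι'] [DecidableEq ι']
    {D : XTData M} {m : ℤ} (hm : m ≠ 0) {q : M → Y} (hq : IsQuot D m q)
    (hF : FiniteStmt Y) (hS : SerreStmt Y) (hRR : RRStmt Y) (hO : chi (OX Y) 0 0 = 0)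
    (LK : LB Y ι') (hK : IsCanon LK) (L : LB M ι) (a : M → Fin 2 → ℂ) (hL : L.IsHol a)
    (hP : ∀ x, L.P (D.sh m x) = L.P x) (ha : ∀ x, a (D.sh m x) = a x) {μ : ℂ} (hμ : μ ≠ 0)
    (r : ℕ)
    (V0 : ∀ u : M → EuclideanSpace ℂ ι, Reg0 ∞ 0 u → L.Sec u → (∀ x i, L.db0 a 0 u x i = 0) →
      D.Equiv m μ u → u = 0)
    (V2 : ∀ v : M → EuclideanSpace ℂ ι, Reg0 ∞ 1 v → L.dual.Sec v →
      (∀ x i, L.dual.db0 (-a) 1 v x i = 0) → D.Equiv m μ⁻¹ v → v = 0)
    (num : isec (hq.lbd L hP) (hq.lbd L hP) - isec (hq.lbd L hP) LK = -(2 * (r : ℂ))) :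
    EqEx D L a m μ r := by
  intro w hw
  -- the exponent
  have hm' : (m : ℂ) ≠ 0 := by exact_mod_cast hm
  obtain ⟨lam, hlam⟩ : ∃ lam : ℂ, Complex.exp (lam * m) = μ :=
    ⟨Complex.log μ / m, by rw [div_mul_cancel₀ _ hm', Complex.exp_log hμ]⟩
  have hlam' : Complex.exp (-lam * m) = μ⁻¹ := by rw [neg_mul, Complex.exp_neg, hlam]
  have ha' := fun x => IsQuot.tw_inv (D := D) (m := m) ha lam x
  have hna : ∀ x, (-a) (D.sh m x) = (-a) x := fun x => by rw [Pi.neg_apply, ha, Pi.neg_apply]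
  set L' := hq.lbd L hP with hL'
  set a' := hq.desc (tw a lam D.f) with ha'd
  have hHol : L'.IsHol a' := hq.isHol_desc hP ha' (isHol_tw hL lam D.f_smooth)
  -- the two vanishing statements
  have V0' : ∀ s, Reg0 ∞ 0 s → L'.Sec s → L'.db0 a' 0 s = 0 → s = 0 :=
    hq.van hP ha 0 hlam V0
  have V2' : ∀ s, Reg0 ∞ 1 s → L'.dual.Sec s → L'.dual.db0 (-a') 1 s = 0 → s = 0 := by
    have e : -a' = hq.desc (tw (-a) (-lam) D.f) := by
      rw [← tw_neg]; rfl
    rw [e, hL', hq.lbd_dual]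
    exact hq.van (IsQuot.dual_P hq hP) hna 1 hlam' V2
  -- descent of the forms
  let v : Fin (r + 1) → Y → Fin 2 → EuclideanSpace ℂ ι := fun j =>
    hq.desc fun x => ex (-lam) D.f x • w j x
  have hv : ∀ j x, v j (q x) = ex (-lam) D.f x • w j x := fun j x =>
    hq.desc_apply (fun x => IsQuot.inv_of_equiv hlam (hw j).2.2.2 x) x
  have hv' : ∀ j, (fun x => v j (q x)) = fun x => ex (-lam) D.f x • w j x := fun j =>
    funext (hv j)
  have hwv : ∀ j, w j = fun x => ex lam D.f x • (fun x => v j (q x)) x := fun j => by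
    funext x
    simp only [hv, smul_smul, ex_mul_neg, one_smul]
  have hreg : ∀ j, Reg1 ∞ 0 fun x => v j (q x) := fun j => by
    rw [hv']; exact reg1_smulS (reg0_ex (-lam) D.f_smooth) (hw j).1
  have hsec : ∀ j, L.Sec1 fun x => v j (q x) := fun j => by
    rw [hv']; exact sec1_smulS (hw j).2.1
  obtain ⟨c, hc, s, hs, hss, hsw⟩ := exists_exact hF hS hRR hO LK hK L' a' hHol r V0' V2' num v
    (fun j => ⟨(hq.cm.reg1_comp_iff hq.surj).1 (hreg j), hq.sec1_desc hP (hsec j), fun y => by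
      obtain ⟨x, rfl⟩ := hq.surj y
      have h1 := (hw j).2.2.1 x
      rw [hwv j, db1_twist L a 0 lam D.f_smooth (hreg j) (hsec j)] at h1
      rw [hq.db1_desc hP ha']
      exact (smul_eq_zero.1 h1).resolve_left (ex_ne_zero _ _ _)⟩)
  have hs' : Reg0 ∞ 0 fun x => s (q x) := hq.cm.reg0_comp hs
  have hss' := hq.sec_comp hP hss
  refine ⟨c, hc, fun x => ex lam D.f x • s (q x), reg0_smulS (reg0_ex lam D.f_smooth) hs',
    sec_smulS hss', hq.equiv_of_comp hlam s, fun x i => ?_⟩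
  rw [db0_twist L a 0 lam D.f_smooth hs' hss', ← hq.db0_desc hP ha', hsw]
  simp only [Finset.sum_apply, Pi.smul_apply, Finset.smul_sum]
  refine Finset.sum_congr rfl fun j _ => ?_
  rw [smul_comm, hwv j]
  rfl

end quot

end Vale.Agent.P267.H824
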