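import Vale.Agent.P267.H824.Desc
import Vale.Agent.P267.H877.Iface
import Vale.Agent.P267.H87.Norm
import Vale.Agent.P267.H533.Bump

/-!
# P267, package XM-H1, part 3 (helper824): `H1m` of `H877/Iface.lean`

* `van_of_T0` : the degree 0 estimate `T0` gives vanishing of equivariant holomorphic sections;
* `h1m` : `D.H1m L a m μ r` from Riemann-Roch on `Y = X_m` and `T0` for `L` and `K ⊗ L^*`;
* curvature of the dual bundle and of the trivial bundle; `h1m_triv`, `h1m_dual`.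
-/

set_option linter.unusedSectionVars false
set_option linter.unusedVariables false

open scoped Manifold ContDiff Topology Matrix Pointwise
open Set Filter

noncomputable section

namespace Vale.Agent.P267.H824

open FL XT RR

variable {M : Type} [TopologicalSpace M] [ChartedSpace C2 M]
variable {Y : Type} [TopologicalSpace Y] [ChartedSpace C2 Y]
variable {ι : Type} [Fintype ι] [DecidableEq ι] {ι' : Type} [Fintype ι'] [DecidableEq ι']

section van

variable [IsManifold 𝓘(ℂ, C2) ω M] {D : XTData M}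

theorem p0_equiv (κ : ℤ) {m : ℤ} {μ : ℂ} {u : M → EuclideanSpace ℂ ι} (hu : D.Equiv m μ u)
    (j : ℤ) : D.p0 κ u (j + m) = ‖μ‖ * D.p0 κ u j := by
  rw [XTData.p0, ← D.prof_comp_sh]
  have h : (fun x => n0 D.h κ u (D.sh m x)) = fun x => ‖μ‖ * n0 D.h κ u x := by
    funext x
    rw [← D.n0_comp_sh, n0, n0, hu x, norm_smul]
    ring
  rw [h, XTData.p0, XTData.prof, XTData.prof]
  have h2 : (fun x => ‖μ‖ * n0 D.h κ u x) '' D.slab j = ‖μ‖ • (n0 D.h κ u '' D.slab j) := by
    ext y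
    constructor
    · rintro ⟨x, hx, rfl⟩
      exact ⟨n0 D.h κ u x, ⟨x, hx, rfl⟩, rfl⟩
    · rintro ⟨_, ⟨x, hx, rfl⟩, rfl⟩
      exact ⟨x, hx, rfl⟩
  rw [h2, Real.sSup_smul_of_nonneg (norm_nonneg μ), smul_eq_mul]

/-- an `m`-periodic function on `ℤ` is bounded -/
theorem bdd_of_periodic {m : ℕ} (hm : 0 < m) {φ : ℤ → ℝ} (hφ : ∀ j, φ (j + m) = φ j) :
    ∃ A, ∀ j, φ j ≤ A := by
  have h1 : ∀ (k : ℤ) (j : ℤ), φ (j + m * k) = φ j := by
    apply XTData.sh_induction
    · simp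
    · intro k hk j
      rw [show j + m * (k + 1) = (j + m * k) + m by ring, hφ, hk]
    · intro k hk j
      rw [← hφ (j + m * (k - 1)), show j + m * (k - 1) + m = j + m * k by ring, hk]
  refine ⟨∑ i ∈ Finset.range m, |φ i|, fun j => ?_⟩
  have h2 : φ j = φ (j % m) := by
    have := h1 (j / m) (j % m)
    rwa [Int.emod_add_mul_ediv] at this
  have h3 : 0 ≤ j % m := Int.emod_nonneg _ (by positivity)
  have h4 : j % m < m := Int.emod_lt_of_pos _ (by positivity)
  obtain ⟨i, hi⟩ := Int.eq_ofNat_of_zero_le h3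
  rw [h2, hi]
  calc φ i ≤ |φ i| := le_abs_self _
    _ ≤ ∑ i ∈ Finset.range m, |φ i| :=
      Finset.single_le_sum (f := fun i : ℕ => |φ i|) (fun _ _ => abs_nonneg _)
        (Finset.mem_range.2 (by omega))

theorem van_of_T0 {κ : ℤ} {L : LB M ι} {a : M → Fin 2 → ℂ} {w : ℤ → ℝ} {C : ℝ}
    (hT : D.T0 κ L a w C) {m : ℕ} (hm : 0 < m) {μ : ℂ} (hw : ∀ j, 0 < w j)
    (hwm : ∀ j, w (j + m) = ‖μ‖ * w j) (u : M → EuclideanSpace ℂ ι) (hu : Reg0 ∞ κ u)
    (hs : L.Sec u) (h0 : ∀ x i, L.db0 a κ u x i = 0) (he : D.Equiv m μ u) : u = 0 := by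
  have hμ : 0 < ‖μ‖ := by
    have h1 := hwm 0
    have h2 := hw (0 + m)
    rw [h1] at h2
    exact pos_of_mul_pos_left h2 (hw 0).le
  have hper : ∀ j, D.p0 κ u (j + m) / w (j + m) = D.p0 κ u j / w j := by
    intro j
    rw [p0_equiv κ he, hwm, mul_div_mul_left _ _ hμ.ne']
  obtain ⟨A, hA⟩ := bdd_of_periodic (φ := fun j => D.p0 κ u j / w j) hm hper
  have hA' : ∀ j, D.p0 κ u j ≤ A * w j := fun j => (div_le_iff₀ (hw j)).1 (hA j)
  have h1 : ∀ j, D.p1 κ (L.db0 a κ u) j ≤ 0 * w j := by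
    intro j
    rw [zero_mul]
    refine D.prof_le le_rfl fun x _ => ?_
    have : L.db0 a κ u x = 0 := funext (h0 x)
    rw [n1, nsq1, this]
    simp
  have h2 := hT u hu hs ⟨A, hA'⟩ 0 h1
  have hc : Continuous (n0 D.h κ u) := H87.continuous_n0 D.herm hu
  funext x
  have h3 := (D.le_prof hc (D.mem_slab_floor x)).trans (h2 _)
  rw [mul_zero, zero_mul, n0] at h3
  have h4 : 0 < dh D.h x ^ (-(κ : ℝ) / 2) :=
    Real.rpow_pos_of_pos (Complex.pos_iff.1 (D.herm.posDef x).det_pos).1 _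
  have h5 : ‖u x‖ ≤ 0 := by
    by_contra h
    push Not at h
    exact absurd h3 (not_le.2 (mul_pos h h4))
  simpa using h5

end van

section main

variable [IsManifold 𝓘(ℂ, C2) ω M] [IsManifold 𝓘(ℂ, C2) ω Y]

theorem ew_add (δ : ℝ) (m : ℕ) {μ : ℂ} (hμ : ‖μ‖ = Real.exp (δ * m)) (j : ℤ) :
    ew δ (j + m) = ‖μ‖ * ew δ j := by
  rw [ew, ew, hμ, ← Real.exp_add]
  congr 1
  push_cast
  ring

/-- **XM-H1 in the language of `H877/Iface.lean`.** -/
theorem h1m {D : XTData M} {m : ℕ} (hm : 0 < m) {q : M → Y} (hq : IsQuot D m q)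
    (hF : FiniteStmt Y) (hS : SerreStmt Y) (hRR : RRStmt Y) (hO : chi (OX Y) 0 0 = 0)
    (LK : LB Y ι') (hK : IsCanon LK) (L : LB M ι) (a : M → Fin 2 → ℂ) (hL : L.IsHol a)
    (hP : ∀ x, L.P (D.sh m x) = L.P x) (ha : ∀ x, a (D.sh m x) = a x) {μ : ℂ} {δ : ℝ}
    (hμ : ‖μ‖ = Real.exp (δ * m)) (r : ℕ) {C C' : ℝ} (hT : D.T0 0 L a (ew δ) C)
    (hT' : D.T0 1 L.dual (-a) (ew (-δ)) C')
    (num : isec (hq.lbd L hP) (hq.lbd L hP) - isec (hq.lbd L hP) LK = -(2 * (r : ℂ))) :
    D.H1m L a m μ r := by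
  have hμ0 : μ ≠ 0 := by
    rw [← norm_pos_iff, hμ]; exact Real.exp_pos _
  have hm' : (m : ℤ) ≠ 0 := by exact_mod_cast hm.ne'
  have hinv : ‖μ⁻¹‖ = Real.exp (-δ * m) := by
    rw [norm_inv, hμ, ← Real.exp_neg]; ring_nf
  have h := eqEx hm' hq hF hS hRR hO LK hK L a hL hP ha hμ0 r
    (fun u hu hs h0 he => van_of_T0 hT hm (fun j => Real.exp_pos _) (ew_add δ m hμ) u hu hs h0 he)
    (fun u hu hs h0 he => van_of_T0 hT' hm (fun j => Real.exp_pos _) (ew_add (-δ) m hinv) u hu hs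
      h0 he) num
  intro g hg
  obtain ⟨c, hc, u, h1, h2, h3, h4⟩ := h g fun i => ⟨(hg i).1, (hg i).2.1, (hg i).2.2.2, (hg i).2.2.1⟩
  exact ⟨c, hc, u, h1, h2, h3, h4⟩

/-- the descended bundle is determined by its projectors -/
theorem lbd_eq {D : XTData M} {m : ℤ} {q : M → Y} (hq : IsQuot D m q) {L : LB M ι}
    (hP : ∀ x, L.P (D.sh m x) = L.P x) {L' : LB Y ι} (h : ∀ x, L'.P (q x) = L.P x) :
    hq.lbd L hP = L' := by
  apply lb_ext
  funext y
  obtain ⟨x, rfl⟩ := hq.surj y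
  rw [hq.lbd_P, h]

end main

/-! ### curvature of the dual and of the trivial bundle -/

section curv

variable {X : Type*} [TopologicalSpace X] [ChartedSpace C2 X]

theorem trace_dual (P A B : Matrix ι ι ℂ) :
    (Pᵀ * (Aᵀ * Bᵀ - Bᵀ * Aᵀ)).trace = -(P * (A * B - B * A)).trace := by
  rw [← Matrix.transpose_mul, ← Matrix.transpose_mul, ← Matrix.transpose_sub,
    ← Matrix.transpose_mul, Matrix.trace_transpose, Matrix.trace_mul_comm, ← Matrix.trace_neg,
    ← Matrix.mul_neg, neg_sub]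

theorem F02_dual (L : LB X ι) (x : X) : L.dual.F02 x = -L.F02 x := trace_dual _ _ _

theorem F20_dual (L : LB X ι) (x : X) : L.dual.F20 x = -L.F20 x := trace_dual _ _ _

theorem F11_dual (L : LB X ι) (x : X) (k l : Fin 2) : L.dual.F11 x k l = -L.F11 x k l :=
  trace_dual _ _ _

theorem wedge_dual_left (L : LB X ι) (G : TwoF X) (x : X) :
    L.dual.curv.wedge G x = -L.curv.wedge G x := by
  simp only [TwoF.wedge, LB.curv, F02_dual, F20_dual, F11_dual]
  ring

theorem wedge_comm (F G : TwoF X) (x : X) : F.wedge G x = G.wedge F x := by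
  simp only [TwoF.wedge]
  ring

theorem wedge_dual_right (L : LB X ι) (G : TwoF X) (x : X) :
    G.wedge L.dual.curv x = -G.wedge L.curv x := by
  rw [wedge_comm, wedge_dual_left, wedge_comm]

theorem curv_dual_dual (L : LB X ι) : L.dual.curv.wedge L.dual.curv = L.curv.wedge L.curv := by
  funext x
  rw [wedge_dual_left, wedge_dual_right, neg_neg]

theorem isec_dual_dual (L : LB X ι) : isec L.dual L.dual = isec L L := by
  rw [isec, curv_dual_dual, isec]

theorem isec_comm (L : LB X ι) (L' : LB X ι') : isec L L' = isec L' L := by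
  have : L.curv.wedge L'.curv = L'.curv.wedge L.curv := funext (wedge_comm _ _)
  rw [isec, this, isec]

/-- the integral is odd (no regularity needed) -/
theorem hasInt_neg {b : X → ℂ} {I : ℂ} (h : HasInt b I) : HasInt (-b) (-I) := by
  intro N e ρ he h1 h2 h3 h4
  have hs : tsupport (-b) = tsupport b := by
    simp only [tsupport]
    congr 1
    ext x
    simp
  rw [hs] at h4
  rw [← h N e ρ he h1 h2 h3 h4, ← Finset.sum_neg_distrib]
  refine Finset.sum_congr rfl fun i _ => ?_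
  rw [← MeasureTheory.integral_neg]
  congr 1
  funext z
  simp only [loc2, Pi.neg_apply, smul_neg]
  rw [mul_neg]

theorem F02_triv (i₀ : ι) (x : X) : (LB.triv i₀ : LB X ι).F02 x = 0 := by
  have h : ∀ i j, dbar0 0 (fun y : X => (LB.triv i₀ : LB X ι).P y i j) x = 0 := by
    intro i j
    funext k
    have : loc0 0 (chartAt C2 x) (fun y : X => (LB.triv i₀ : LB X ι).P y i j) =
        fun _ => (Matrix.single i₀ i₀ (1 : ℂ)) i j := by
      funext z; simp [loc0, LB.triv]
    rw [dbar0, this, dzb_const]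
    rfl
  have h' : ∀ k, (Matrix.of fun i j => dbar0 0 (fun y : X => (LB.triv i₀ : LB X ι).P y i j) x k) =
      0 := by
    intro k; ext i j; simp [h]
  rw [LB.F02, h', h']
  simp

theorem del0_const (c : ℂ) (x : X) : del0 (fun _ : X => c) x = 0 := by
  funext k
  rw [del0, dz_const]
  rfl

theorem F20_triv (i₀ : ι) (x : X) : (LB.triv i₀ : LB X ι).F20 x = 0 := by
  have h' : ∀ k, (Matrix.of fun i j => del0 (fun y : X => (LB.triv i₀ : LB X ι).P y i j) x k) =
      0 := by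
    intro k; ext i j
    simp only [LB.triv, Matrix.of_apply, Matrix.zero_apply]
    rw [del0_const]
    rfl
  rw [LB.F20, h', h']
  simp

theorem F11_triv (i₀ : ι) (x : X) : (LB.triv i₀ : LB X ι).F11 x = 0 := by
  have h' : ∀ k, (Matrix.of fun i j => del0 (fun y : X => (LB.triv i₀ : LB X ι).P y i j) x k) =
      0 := by
    intro k; ext i j
    simp only [LB.triv, Matrix.of_apply, Matrix.zero_apply]
    rw [del0_const]
    rfl
  ext k l
  rw [LB.F11, Matrix.of_apply, h']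
  simp

theorem isec_triv_left [T2Space X] [IsManifold 𝓘(ℂ, C2) ω X] (i₀ : ι) (L : LB X ι') :
    isec (LB.triv i₀ : LB X ι) L = 0 := by
  have : (LB.triv i₀ : LB X ι).curv.wedge L.curv = fun _ => 0 := by
    funext x
    simp [TwoF.wedge, LB.curv, F02_triv, F20_triv, F11_triv]
  rw [isec, this, H533.intX_zero, mul_zero]

end curv

end Vale.Agent.P267.H824
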